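import Vale.Agent.H35.Banach.Main

/-!
P130 (Banach's simple Lebesgue spectrum problem), group action version.

There is a measure preserving action `T` of the countable abelian group
`ℕ →₀ ZMod 3` (the direct sum of countably many copies of the cyclic group of order 3)
on a standard nonatomic probability space, and a real function `f` with zero mean and
finite second moment, such that the translates `f ∘ T g` are orthonormal and total in the
mean zero part of complex `L²`: an orthonormal basis indexed by the group, so the Koopman
representation on the mean zero space is the regular representation (simple Haar spectrum,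
no discrete part).
-/

namespace Vale.Agent.Results.P130.A_SimpleHaarSpectrum

open MeasureTheory Vale.Agent.H35.Banach

theorem result :
    ∃ (X : Type) (_ : MeasurableSpace X) (_ : StandardBorelSpace X) (μ : Measure X)
      (_ : IsProbabilityMeasure μ) (T : (ℕ →₀ ZMod 3) → X → X) (f : X → ℝ),
      (∀ x : X, μ {x} = 0) ∧
      (∀ g, MeasurePreserving (T g) μ μ) ∧
      (∀ x, T 0 x = x) ∧
      (∀ g h x, T (g + h) x = T g (T h x)) ∧
      MemLp f 2 μ ∧
      ∫ x, f x ∂μ = 0 ∧
      (∀ g h, ∫ x, f (T g x) * f (T h x) ∂μ = if g = h then 1 else 0) ∧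
      (∀ F : X → ℂ, MemLp F 2 μ → ∫ x, F x ∂μ = 0 →
        (∀ g, ∫ x, F x * ((f (T g x) : ℝ) : ℂ) ∂μ = 0) → F =ᵐ[μ] 0) := by
  refine ⟨Vale.Agent.H35.Banach.X, inferInstance, inferInstance, mu, inferInstance,
    Vale.Agent.H35.Banach.T, fun x => fL x, mu_singleton, mp_T, T_zero, T_add, memLp_fL,
    integral_fL, ?_, complete_complex⟩
  intro g h
  rw [main_orth g h]

end Vale.Agent.Results.P130.A_SimpleHaarSpectrum
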