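import Vale.Agent.H35.Banach.Main

/-!
P130 (Banach's simple Lebesgue spectrum problem), group action version, with two corollaries.

There is a measure preserving action `T` of the countable abelian group `ℕ →₀ ZMod 3` on a
standard nonatomic probability space and a real function `f` with zero mean and finite second
moment such that the translates `f ∘ T g` are orthonormal and total in the mean zero part of
complex `L²` (the statement of `A_SimpleHaarSpectrum`); moreover the translates are total in
the mean zero part of real `L²`, and the action is faithful: for `g ≠ 0` the map `T g` is not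
almost everywhere the identity.
-/

namespace Vale.Agent.Results.P130.B_SimpleHaarSpectrumFaithful

open MeasureTheory Vale.Agent.H35.Banach

theorem result :
    ∃ (X : Type) (_ : MeasurableSpace X) (_ : StandardBorelSpace X) (μ : Measure X)
      (_ : IsProbabilityMeasure μ) (T : (ℕ →₀ ZMod 3) → X → X) (f : X → ℝ),
      (∀ x : X, μ {x} = 0) ∧
      (∀ g, MeasurePreserving (T g) μ μ) ∧
      (∀ x, T 0 x = x) ∧
      (∀ g h x, T (g + h) x = T g (T h x)) ∧
      MemLp f 2 μ ∧
      ∫ x, f x ∂μ = 0 ∧
      (∀ g h, ∫ x, f (T g x) * f (T h x) ∂μ = if g = h then 1 else 0) ∧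
      (∀ F : X → ℂ, MemLp F 2 μ → ∫ x, F x ∂μ = 0 →
        (∀ g, ∫ x, F x * ((f (T g x) : ℝ) : ℂ) ∂μ = 0) → F =ᵐ[μ] 0) ∧
      (∀ F : X → ℝ, MemLp F 2 μ → ∫ x, F x ∂μ = 0 →
        (∀ g, ∫ x, F x * f (T g x) ∂μ = 0) → F =ᵐ[μ] 0) ∧
      (∀ g, g ≠ 0 → ¬ ∀ᵐ x ∂μ, T g x = x) := by
  refine ⟨Vale.Agent.H35.Banach.X, inferInstance, inferInstance, mu, inferInstance,
    Vale.Agent.H35.Banach.T, fun x => fL x, mu_singleton, mp_T, T_zero, T_add, memLp_fL,
    integral_fL, ?_, complete_complex, complete_real, ?_⟩
  · intro g h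
    rw [main_orth g h]
  · intro g hg hae
    have h1 := main_orth g 0
    have h2 := main_orth 0 0
    have h3 : ∫ x, fL (Vale.Agent.H35.Banach.T g x) * fL (Vale.Agent.H35.Banach.T 0 x) ∂mu =
        ∫ x, fL (Vale.Agent.H35.Banach.T 0 x) * fL (Vale.Agent.H35.Banach.T 0 x) ∂mu := by
      apply integral_congr_ae
      filter_upwards [hae] with x hx
      rw [hx, T_zero]
    rw [h1, h2, if_neg hg, if_pos rfl] at h3
    exact zero_ne_one h3

end Vale.Agent.Results.P130.B_SimpleHaarSpectrumFaithful
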